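import Mathlib
import Crest.Prelude.Def_OrderedMatrix

/-!
# Sharper counting of pinned ordered copies (statement S0066)

* `card_strictMono_le`: there are at most `n.choose k` strictly increasing maps `Fin k → Fin n`.
* `orderedCopyCount_le_of_pinned_choose`: if every ordered copy of the `(k+1) × (k+1)` pattern
  puts the fixed entry `(a, b)` on a cell of `Z`, then `#copies ≤ |Z| * C(n,k) * C(n,k)`.
* `orderedCopyCount_mul_factorial_le_of_pinned`: hence `#copies * (k! * k!) ≤ |Z| * n^k * n^k`.
* `orderedCopyCount_le_of_pinned_set`: the same when the pinned entry may vary in a set `P` of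
  positions of the pattern: `#copies ≤ |P| * |Z| * C(n,k) * C(n,k)`.
-/

set_option autoImplicit false

namespace Crest.Agent.Helper60.OrdMat

open Crest.CombinatoricsR.OrderedMatrix

/-- There are at most `n.choose k` strictly increasing maps `Fin k → Fin n`. -/
theorem card_strictMono_le (k n : ℕ) :
    Fintype.card {f : Fin k → Fin n // StrictMono f} ≤ n.choose k := by
  classical
  let g : {f : Fin k → Fin n // StrictMono f} →
      {s : Finset (Fin n) // s ∈ Finset.powersetCard k (Finset.univ : Finset (Fin n))} :=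
    fun f => ⟨Finset.univ.image f.1, by
      rw [Finset.mem_powersetCard]
      refine ⟨Finset.subset_univ _, ?_⟩
      rw [Finset.card_image_of_injective _ f.2.injective]
      simp⟩
  have hg : Function.Injective g := by
    rintro ⟨f₁, h₁⟩ ⟨f₂, h₂⟩ hEq
    simp only [g, Subtype.mk.injEq] at hEq
    have hr : Set.range f₁ = Set.range f₂ := by
      have := congrArg (fun s : Finset (Fin n) => (s : Set (Fin n))) hEq
      simpa using this
    have := (h₁.range_inj h₂).mp hr
    subst this
    rfl
  have h := Fintype.card_le_of_injective g hg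
  rw [Fintype.card_coe, Finset.card_powersetCard] at h
  simpa using h

/-- `C(n,k) * k! ≤ n^k`. -/
theorem choose_mul_factorial_le_pow (n k : ℕ) : n.choose k * k.factorial ≤ n ^ k := by
  rw [mul_comm, ← Nat.descFactorial_eq_factorial_mul_choose]
  exact Nat.descFactorial_le_pow n k

/-- If every ordered copy of `H` in `A` puts the entry `(a, b)` of the pattern on a cell of `Z`,
then the number of ordered copies is at most `|Z| * C(n,k) * C(n,k)`. -/
theorem orderedCopyCount_le_of_pinned_choose {k n : ℕ} (H : Fin (k + 1) → Fin (k + 1) → Bool)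
    (A : Fin n → Fin n → Bool) (a b : Fin (k + 1)) (Z : Finset (Fin n × Fin n))
    (hZ : ∀ rows cols : Fin (k + 1) → Fin n, StrictMono rows → StrictMono cols →
      (∀ i j, A (rows i) (cols j) = H i j) → (rows a, cols b) ∈ Z) :
    orderedCopyCount H A ≤ Z.card * n.choose k * n.choose k := by
  classical
  unfold orderedCopyCount
  let f : {rc : (Fin (k + 1) → Fin n) × (Fin (k + 1) → Fin n) //
      StrictMono rc.1 ∧ StrictMono rc.2 ∧ ∀ i j : Fin (k + 1), A (rc.1 i) (rc.2 j) = H i j} →
      (Z × {f : Fin k → Fin n // StrictMono f}) × {f : Fin k → Fin n // StrictMono f} :=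
    fun rc => ((⟨(rc.1.1 a, rc.1.2 b), hZ rc.1.1 rc.1.2 rc.2.1 rc.2.2.1 rc.2.2.2⟩,
      ⟨fun i => rc.1.1 (a.succAbove i), rc.2.1.comp (Fin.strictMono_succAbove a)⟩),
      ⟨fun j => rc.1.2 (b.succAbove j), rc.2.2.1.comp (Fin.strictMono_succAbove b)⟩)
  have hf : Function.Injective f := by
    rintro ⟨⟨r₁, c₁⟩, h₁⟩ ⟨⟨r₂, c₂⟩, h₂⟩ hEq
    simp only [f, Prod.mk.injEq, Subtype.mk.injEq] at hEq
    obtain ⟨⟨⟨hra, hcb⟩, hr⟩, hc⟩ := hEq
    have er : r₁ = r₂ := by
      funext i
      rcases Fin.eq_self_or_eq_succAbove a i with rfl | ⟨j, rfl⟩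
      · exact hra
      · exact congrFun hr j
    have ec : c₁ = c₂ := by
      funext i
      rcases Fin.eq_self_or_eq_succAbove b i with rfl | ⟨j, rfl⟩
      · exact hcb
      · exact congrFun hc j
    subst er ec
    rfl
  have h1 := Fintype.card_le_of_injective f hf
  rw [Fintype.card_prod, Fintype.card_prod, Fintype.card_coe] at h1
  calc _ ≤ Z.card * Fintype.card {f : Fin k → Fin n // StrictMono f} *
        Fintype.card {f : Fin k → Fin n // StrictMono f} := h1
    _ ≤ Z.card * n.choose k * n.choose k := by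
        gcongr <;> exact card_strictMono_le k n

/-- Pinned count with the factorial gain: `#copies * (k! * k!) ≤ |Z| * n^k * n^k`. -/
theorem orderedCopyCount_mul_factorial_le_of_pinned {k n : ℕ}
    (H : Fin (k + 1) → Fin (k + 1) → Bool)
    (A : Fin n → Fin n → Bool) (a b : Fin (k + 1)) (Z : Finset (Fin n × Fin n))
    (hZ : ∀ rows cols : Fin (k + 1) → Fin n, StrictMono rows → StrictMono cols →
      (∀ i j, A (rows i) (cols j) = H i j) → (rows a, cols b) ∈ Z) :
    orderedCopyCount H A * (k.factorial * k.factorial) ≤ Z.card * n ^ k * n ^ k := by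
  have h := orderedCopyCount_le_of_pinned_choose H A a b Z hZ
  have hc := choose_mul_factorial_le_pow n k
  calc orderedCopyCount H A * (k.factorial * k.factorial)
      ≤ (Z.card * n.choose k * n.choose k) * (k.factorial * k.factorial) :=
        Nat.mul_le_mul_right _ h
    _ = Z.card * (n.choose k * k.factorial) * (n.choose k * k.factorial) := by ring
    _ ≤ Z.card * n ^ k * n ^ k := by gcongr

/-- 66 × 66 version: `#copies * (65! * 65!) ≤ |Z| * n^130`. -/
theorem orderedCopyCount_mul_factorial_le_of_pinned_66 {n : ℕ} (H : Fin 66 → Fin 66 → Bool)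
    (A : Fin n → Fin n → Bool) (a b : Fin 66) (Z : Finset (Fin n × Fin n))
    (hZ : ∀ rows cols : Fin 66 → Fin n, StrictMono rows → StrictMono cols →
      (∀ i j, A (rows i) (cols j) = H i j) → (rows a, cols b) ∈ Z) :
    orderedCopyCount H A * (Nat.factorial 65 * Nat.factorial 65) ≤ Z.card * n ^ 130 := by
  have := orderedCopyCount_mul_factorial_le_of_pinned (k := 65) H A a b Z hZ
  calc _ ≤ Z.card * n ^ 65 * n ^ 65 := this
    _ = Z.card * n ^ 130 := by rw [mul_assoc, ← pow_add]

/-- 66 × 66 version with an arbitrary constant `c ≤ 65! * 65!` (a huge number):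
if `|Z| ≤ c * M` then `#copies ≤ M * n^130`. -/
theorem orderedCopyCount_le_of_pinned_66_const {n : ℕ} (H : Fin 66 → Fin 66 → Bool)
    (A : Fin n → Fin n → Bool) (a b : Fin 66) (Z : Finset (Fin n × Fin n))
    (hZ : ∀ rows cols : Fin 66 → Fin n, StrictMono rows → StrictMono cols →
      (∀ i j, A (rows i) (cols j) = H i j) → (rows a, cols b) ∈ Z)
    (c M : ℕ) (hc : c ≤ Nat.factorial 65 * Nat.factorial 65) (hc0 : 0 < c)
    (hM : Z.card ≤ c * M) :
    orderedCopyCount H A ≤ M * n ^ 130 := by
  have h := orderedCopyCount_mul_factorial_le_of_pinned_66 H A a b Z hZ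
  have h2 : orderedCopyCount H A * c ≤ (M * n ^ 130) * c := by
    calc orderedCopyCount H A * c
        ≤ orderedCopyCount H A * (Nat.factorial 65 * Nat.factorial 65) :=
          Nat.mul_le_mul_left _ hc
      _ ≤ Z.card * n ^ 130 := h
      _ ≤ (c * M) * n ^ 130 := Nat.mul_le_mul_right _ hM
      _ = (M * n ^ 130) * c := by ring
  exact Nat.le_of_mul_le_mul_right h2 hc0

/-- Version with a varying pinned position: if every ordered copy puts SOME entry `(a, b) ∈ P`
of the pattern on a cell of `Z`, then `#copies ≤ |P| * (|Z| * C(n,k) * C(n,k))`. -/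
theorem orderedCopyCount_le_of_pinned_set {k n : ℕ} (H : Fin (k + 1) → Fin (k + 1) → Bool)
    (A : Fin n → Fin n → Bool) (P : Finset (Fin (k + 1) × Fin (k + 1)))
    (Z : Finset (Fin n × Fin n))
    (hZ : ∀ rows cols : Fin (k + 1) → Fin n, StrictMono rows → StrictMono cols →
      (∀ i j, A (rows i) (cols j) = H i j) → ∃ p ∈ P, (rows p.1, cols p.2) ∈ Z) :
    orderedCopyCount H A ≤ P.card * (Z.card * n.choose k * n.choose k) := by
  classical
  unfold orderedCopyCount
  set S := {rc : (Fin (k + 1) → Fin n) × (Fin (k + 1) → Fin n) //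
      StrictMono rc.1 ∧ StrictMono rc.2 ∧ ∀ i j : Fin (k + 1), A (rc.1 i) (rc.2 j) = H i j}
    with hS
  have hex : ∀ rc : S, ∃ p ∈ P, (rc.1.1 p.1, rc.1.2 p.2) ∈ Z :=
    fun rc => hZ rc.1.1 rc.1.2 rc.2.1 rc.2.2.1 rc.2.2.2
  choose pos hposP hposZ using hex
  let f : S → (P × (Z × {f : Fin k → Fin n // StrictMono f})) ×
      {f : Fin k → Fin n // StrictMono f} :=
    fun rc => ((⟨pos rc, hposP rc⟩, (⟨(rc.1.1 (pos rc).1, rc.1.2 (pos rc).2), hposZ rc⟩,
      ⟨fun i => rc.1.1 ((pos rc).1.succAbove i),
        rc.2.1.comp (Fin.strictMono_succAbove (pos rc).1)⟩)),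
      ⟨fun j => rc.1.2 ((pos rc).2.succAbove j),
        rc.2.2.1.comp (Fin.strictMono_succAbove (pos rc).2)⟩)
  have hf : Function.Injective f := by
    intro x y hEq
    simp only [f, Prod.mk.injEq, Subtype.mk.injEq] at hEq
    obtain ⟨⟨hp, ⟨hra, hcb⟩, hr⟩, hc⟩ := hEq
    obtain ⟨⟨r₁, c₁⟩, h₁⟩ := x
    obtain ⟨⟨r₂, c₂⟩, h₂⟩ := y
    simp only at hp hra hcb hr hc
    rw [← hp] at hr hc
    have er : r₁ = r₂ := by
      funext i
      rcases Fin.eq_self_or_eq_succAbove (pos ⟨(r₁, c₁), h₁⟩).1 i with hi | ⟨j, hj⟩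
      · rw [hi]; exact hra.trans (by rw [hp])
      · rw [hj]; exact congrFun hr j
    have ec : c₁ = c₂ := by
      funext i
      rcases Fin.eq_self_or_eq_succAbove (pos ⟨(r₁, c₁), h₁⟩).2 i with hi | ⟨j, hj⟩
      · rw [hi]; exact hcb.trans (by rw [hp])
      · rw [hj]; exact congrFun hc j
    subst er ec
    rfl
  have h1 := Fintype.card_le_of_injective f hf
  rw [Fintype.card_prod, Fintype.card_prod, Fintype.card_prod, Fintype.card_coe,
    Fintype.card_coe] at h1
  calc _ ≤ P.card * (Z.card * Fintype.card {f : Fin k → Fin n // StrictMono f}) *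
        Fintype.card {f : Fin k → Fin n // StrictMono f} := h1
    _ ≤ P.card * (Z.card * n.choose k) * n.choose k := by
        gcongr <;> exact card_strictMono_le k n
    _ = P.card * (Z.card * n.choose k * n.choose k) := by ring

end Crest.Agent.Helper60.OrdMat
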