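import Mathlib
import Crest.Prelude.Def_OrderedMatrix

/-!
# Generic lemmas for ordered copies of a binary pattern (statement S0066)

Construction-independent glue:

* `count_ineq`, `dist_ineq`: the two real inequalities of the frozen statement S0066 from
  natural-number bounds (`#copies ≤ 2^h * n^130` and `4^h ≤ #changed cells`).
* `orderedCopyCount_le_of_pinned`: if every ordered copy puts the fixed entry `(a, b)` of the
  pattern on a cell of a set `Z`, then `#copies ≤ |Z| * n^k * n^k` (pattern size `k+1`).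
* `card_diff_ge_of_forcing`: a family of pairwise disjoint cell sets, each containing a changed
  cell, gives a lower bound for the number of changed cells.
* `orderedCopyCount_eq_zero_iff`, `copy_comp`: restriction of hosts along strictly monotone maps.
-/

set_option autoImplicit false

namespace Crest.Agent.Helper60.OrdMat

open Crest.CombinatoricsR.OrderedMatrix

/-! ### the two real inequalities of S0066 -/

/-- Inequality (2) of S0066 from the natural-number bound `#copies ≤ 2^h * n^130`. -/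
theorem count_ineq (h c : ℕ) (hc : c ≤ 2 ^ h * ((386 * h + 2) * 2 ^ h) ^ 130) :
    (c : ℝ) / (((386 * h + 2) * 2 ^ h : ℕ) : ℝ) ^ 132 ≤
      ((386 * (h : ℝ) + 2) ^ 2)⁻¹ * (2 : ℝ)⁻¹ ^ h := by
  have hq : (0 : ℝ) < 386 * (h : ℝ) + 2 := by positivity
  have h2 : (0 : ℝ) < (2 : ℝ) ^ h := by positivity
  have hn : (((386 * h + 2) * 2 ^ h : ℕ) : ℝ) = (386 * (h : ℝ) + 2) * 2 ^ h := by
    push_cast; ring
  have hc' : (c : ℝ) ≤ 2 ^ h * ((386 * (h : ℝ) + 2) * 2 ^ h) ^ 130 := by
    have := (Nat.cast_le (α := ℝ)).mpr hc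
    rw [← hn]
    exact_mod_cast this
  rw [hn, div_le_iff₀ (by positivity)]
  have e : ((386 * (h : ℝ) + 2) ^ 2)⁻¹ * (2 : ℝ)⁻¹ ^ h * ((386 * (h : ℝ) + 2) * 2 ^ h) ^ 132 =
      2 ^ h * ((386 * (h : ℝ) + 2) * 2 ^ h) ^ 130 := by
    rw [inv_pow]
    field_simp
  rw [e]
  exact hc'

/-- Inequality (1) of S0066 from the natural-number bound `4^h ≤ #changed cells`. -/
theorem dist_ineq (h d : ℕ) (hd : 4 ^ h ≤ d) :
    ((386 * (h : ℝ) + 2) ^ 2)⁻¹ * (((386 * h + 2) * 2 ^ h : ℕ) : ℝ) ^ 2 ≤ (d : ℝ) := by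
  have hq : (0 : ℝ) < 386 * (h : ℝ) + 2 := by positivity
  have hn : (((386 * h + 2) * 2 ^ h : ℕ) : ℝ) = (386 * (h : ℝ) + 2) * 2 ^ h := by
    push_cast; ring
  have e : ((386 * (h : ℝ) + 2) ^ 2)⁻¹ * ((386 * (h : ℝ) + 2) * 2 ^ h) ^ 2 = (4 : ℝ) ^ h := by
    have : (4 : ℝ) ^ h = (2 ^ h) ^ 2 := by
      rw [← pow_mul, mul_comm, pow_mul]; norm_num
    rw [this]
    field_simp
  rw [hn, e]
  exact_mod_cast hd

/-! ### counting copies pinned to a set of cells -/

/-- If every ordered copy of `H` in `A` puts the entry `(a, b)` of the pattern on a cell of `Z`,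
then the number of ordered copies is at most `|Z| * n^k * n^k`. -/
theorem orderedCopyCount_le_of_pinned {k n : ℕ} (H : Fin (k + 1) → Fin (k + 1) → Bool)
    (A : Fin n → Fin n → Bool) (a b : Fin (k + 1)) (Z : Finset (Fin n × Fin n))
    (hZ : ∀ rows cols : Fin (k + 1) → Fin n, StrictMono rows → StrictMono cols →
      (∀ i j, A (rows i) (cols j) = H i j) → (rows a, cols b) ∈ Z) :
    orderedCopyCount H A ≤ Z.card * n ^ k * n ^ k := by
  classical
  unfold orderedCopyCount
  let f : {rc : (Fin (k + 1) → Fin n) × (Fin (k + 1) → Fin n) //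
      StrictMono rc.1 ∧ StrictMono rc.2 ∧ ∀ i j : Fin (k + 1), A (rc.1 i) (rc.2 j) = H i j} →
      (Z × (Fin k → Fin n)) × (Fin k → Fin n) :=
    fun rc => ((⟨(rc.1.1 a, rc.1.2 b), hZ rc.1.1 rc.1.2 rc.2.1 rc.2.2.1 rc.2.2.2⟩,
      fun i => rc.1.1 (a.succAbove i)), fun j => rc.1.2 (b.succAbove j))
  have hf : Function.Injective f := by
    rintro ⟨⟨r₁, c₁⟩, h₁⟩ ⟨⟨r₂, c₂⟩, h₂⟩ hEq
    simp only [f, Prod.mk.injEq, Subtype.mk.injEq] at hEq
    obtain ⟨⟨⟨hra, hcb⟩, hr⟩, hc⟩ := hEq
    have er : r₁ = r₂ := by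
      funext i
      rcases Fin.eq_self_or_eq_succAbove a i with rfl | ⟨j, rfl⟩
      · exact hra
      · exact congrFun hr j
    have ec : c₁ = c₂ := by
      funext i
      rcases Fin.eq_self_or_eq_succAbove b i with rfl | ⟨j, rfl⟩
      · exact hcb
      · exact congrFun hc j
    subst er ec
    rfl
  have := Fintype.card_le_of_injective f hf
  simpa [Fintype.card_prod, Fintype.card_pi, Finset.prod_const] using this

/-- Specialisation to the 66 × 66 patterns of S0066: `#copies ≤ |Z| * n^130`. -/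
theorem orderedCopyCount_le_of_pinned_66 {n : ℕ} (H : Fin 66 → Fin 66 → Bool)
    (A : Fin n → Fin n → Bool) (a b : Fin 66) (Z : Finset (Fin n × Fin n))
    (hZ : ∀ rows cols : Fin 66 → Fin n, StrictMono rows → StrictMono cols →
      (∀ i j, A (rows i) (cols j) = H i j) → (rows a, cols b) ∈ Z) :
    orderedCopyCount H A ≤ Z.card * n ^ 130 := by
  have := orderedCopyCount_le_of_pinned (k := 65) H A a b Z hZ
  calc orderedCopyCount H A ≤ Z.card * n ^ 65 * n ^ 65 := this
    _ = Z.card * n ^ 130 := by rw [mul_assoc, ← pow_add]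

/-! ### lower bounds for the number of changed cells -/

/-- Pairwise disjoint cell sets, each containing a cell where `A` and `B` differ, give at least
as many changed cells as there are sets. -/
theorem card_diff_ge_of_forcing {n : ℕ} (A B : Fin n → Fin n → Bool) {ι : Type*} [Fintype ι]
    (Z : ι → Finset (Fin n × Fin n))
    (hdisj : ∀ i j, i ≠ j → Disjoint (Z i) (Z j))
    (hforce : ∀ i, ∃ c ∈ Z i, A c.1 c.2 ≠ B c.1 c.2) :
    Fintype.card ι ≤
      (Finset.univ.filter (fun rc : Fin n × Fin n => A rc.1 rc.2 ≠ B rc.1 rc.2)).card := by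
  classical
  choose c hcZ hcne using hforce
  have hinj : Function.Injective c := by
    intro i j hij
    by_contra hne
    have := Finset.disjoint_left.mp (hdisj i j hne) (hcZ i)
    exact this (hij ▸ hcZ j)
  have hmaps : ∀ i ∈ (Finset.univ : Finset ι), c i ∈
      (Finset.univ.filter (fun rc : Fin n × Fin n => A rc.1 rc.2 ≠ B rc.1 rc.2)) := by
    intro i _
    simp [hcne i]
  have := Finset.card_le_card_of_injOn c hmaps (fun i _ j _ hij => hinj hij)
  simpa using this

/-! ### copies and freeness -/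

/-- `orderedCopyCount H A = 0` iff there is no ordered copy. -/
theorem orderedCopyCount_eq_zero_iff {k n : ℕ} (H : Fin k → Fin k → Bool)
    (A : Fin n → Fin n → Bool) :
    orderedCopyCount H A = 0 ↔
      ∀ rows cols : Fin k → Fin n, StrictMono rows → StrictMono cols →
        ¬ ∀ i j, A (rows i) (cols j) = H i j := by
  unfold orderedCopyCount
  rw [Fintype.card_eq_zero_iff]
  constructor
  · intro hE rows cols hr hc hA
    exact hE.false ⟨(rows, cols), hr, hc, hA⟩
  · intro hno
    exact ⟨fun rc => hno rc.1.1 rc.1.2 rc.2.1 rc.2.2.1 rc.2.2.2⟩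

/-- A free host stays free after restriction along strictly monotone row and column maps. -/
theorem free_comp {k n m : ℕ} (H : Fin k → Fin k → Bool) (B : Fin n → Fin n → Bool)
    (e₁ e₂ : Fin m → Fin n) (he₁ : StrictMono e₁) (he₂ : StrictMono e₂)
    (hB : orderedCopyCount H B = 0) :
    orderedCopyCount H (fun i j => B (e₁ i) (e₂ j)) = 0 := by
  rw [orderedCopyCount_eq_zero_iff] at hB ⊢
  intro rows cols hr hc hA
  exact hB (e₁ ∘ rows) (e₂ ∘ cols) (he₁.comp hr) (he₂.comp hc) hA

/-- The number of changed cells does not decrease when passing from a restriction (along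
injective row and column maps) to the whole matrix. -/
theorem card_diff_comp_le {n m : ℕ} (A B : Fin n → Fin n → Bool) (e₁ e₂ : Fin m → Fin n)
    (he₁ : Function.Injective e₁) (he₂ : Function.Injective e₂) :
    (Finset.univ.filter (fun rc : Fin m × Fin m =>
        A (e₁ rc.1) (e₂ rc.2) ≠ B (e₁ rc.1) (e₂ rc.2))).card ≤
      (Finset.univ.filter (fun rc : Fin n × Fin n => A rc.1 rc.2 ≠ B rc.1 rc.2)).card := by
  classical
  apply Finset.card_le_card_of_injOn (fun rc : Fin m × Fin m => (e₁ rc.1, e₂ rc.2))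
  · intro rc hrc
    simp only [Finset.mem_coe, Finset.mem_filter, Finset.mem_univ, true_and] at hrc ⊢
    exact hrc
  · intro x _ y _ hxy
    simp only [Prod.mk.injEq] at hxy
    exact Prod.ext (he₁ hxy.1) (he₂ hxy.2)

/-! ### the statement of S0066 from natural-number bounds -/

/-- **Final glue for S0066.** The frozen statement follows from: for every `h ≥ 1` a host `A` of
the prescribed size such that every `H`-free `B` differs from `A` in at least `4^h` cells and `A`
has at most `2^h * n^130` ordered copies of `H`, `n = (386h+2)·2^h`. -/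
theorem s0066_of_nat (H : Fin 66 → Fin 66 → Bool)
    (hmain : ∀ h : ℕ, 1 ≤ h →
      ∃ A : Fin ((386 * h + 2) * 2 ^ h) → Fin ((386 * h + 2) * 2 ^ h) → Bool,
        (∀ B : Fin ((386 * h + 2) * 2 ^ h) → Fin ((386 * h + 2) * 2 ^ h) → Bool,
          orderedCopyCount H B = 0 →
            4 ^ h ≤ (Finset.univ.filter
              (fun rc : Fin ((386 * h + 2) * 2 ^ h) × Fin ((386 * h + 2) * 2 ^ h) =>
                A rc.1 rc.2 ≠ B rc.1 rc.2)).card) ∧
        orderedCopyCount H A ≤ 2 ^ h * ((386 * h + 2) * 2 ^ h) ^ 130) :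
    ∃ H : Fin 66 → Fin 66 → Bool, ∀ h : ℕ, 1 ≤ h →
      ∃ A : Fin ((386 * h + 2) * 2 ^ h) → Fin ((386 * h + 2) * 2 ^ h) → Bool,
        (∀ B : Fin ((386 * h + 2) * 2 ^ h) → Fin ((386 * h + 2) * 2 ^ h) → Bool,
          Crest.CombinatoricsR.OrderedMatrix.orderedCopyCount H B = 0 →
            ((386 * (h : ℝ) + 2) ^ 2)⁻¹ * (((386 * h + 2) * 2 ^ h : ℕ) : ℝ) ^ 2 ≤
              ((Finset.univ.filter (fun rc : Fin ((386 * h + 2) * 2 ^ h) × Fin ((386 * h + 2) * 2 ^ h) =>
                A rc.1 rc.2 ≠ B rc.1 rc.2)).card : ℝ)) ∧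
        (Crest.CombinatoricsR.OrderedMatrix.orderedCopyCount H A : ℝ) /
            (((386 * h + 2) * 2 ^ h : ℕ) : ℝ) ^ 132 ≤
          ((386 * (h : ℝ) + 2) ^ 2)⁻¹ * (2 : ℝ)⁻¹ ^ h := by
  refine ⟨H, fun h hh => ?_⟩
  obtain ⟨A, hA1, hA2⟩ := hmain h hh
  exact ⟨A, fun B hB => dist_ineq h _ (hA1 B hB), count_ineq h _ hA2⟩

end Crest.Agent.Helper60.OrdMat
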