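import Mathlib
import Crest.Prelude.Def_OrderedMatrix
import Crest.Agent.Helper60.OrdMat.Generic

/-!
# Uniform blow-up of a host matrix (statement S0066)

`blowup t A'` replaces every line of the `m × m` host `A'` by `t` consecutive identical lines
(size `m * t`).

* `dist_blowup`: if every `H`-free matrix differs from `A'` in at least `d` cells, then every
  `H`-free matrix differs from `blowup t A'` in at least `t * t * d` cells (the `t * t` constant
  sections partition the cells of the blow-up; no hypothesis on `H`).
* `copy_blowup_proj`: if the rows of `H` are pairwise distinct and the columns of `H` are pairwise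
  distinct, every ordered copy of `H` in the blow-up projects to an ordered copy in `A'`.
* `pinned_blowup`: hence "every copy puts entry `(a, b)` on a cell of `Z'`" transfers to the
  blow-up with the set `blowupCells t Z'` of `t * t * |Z'|` cells.
-/

set_option autoImplicit false

namespace Crest.Agent.Helper60.OrdMat

open Crest.CombinatoricsR.OrderedMatrix

/-- The block (line of `A'`) to which a line of the blow-up belongs. -/
def blk {m t : ℕ} (x : Fin (m * t)) : Fin m := (finProdFinEquiv.symm x).1

/-- The `a`-th constant section: line `i` of `A'` goes to its `a`-th clone. -/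
def sec {m t : ℕ} (a : Fin t) (i : Fin m) : Fin (m * t) := finProdFinEquiv (i, a)

/-- The uniform blow-up: every line is replaced by `t` consecutive clones. -/
def blowup {m : ℕ} (t : ℕ) (A' : Fin m → Fin m → Bool) : Fin (m * t) → Fin (m * t) → Bool :=
  fun x y => A' (blk x) (blk y)

lemma blk_sec {m t : ℕ} (a : Fin t) (i : Fin m) : blk (sec a i) = i := by
  simp [blk, sec]

lemma blk_val {m t : ℕ} (x : Fin (m * t)) : (blk x).val = x.val / t := rfl

lemma sec_val {m t : ℕ} (a : Fin t) (i : Fin m) : (sec a i).val = a.val + t * i.val := rfl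

lemma blk_mono {m t : ℕ} : Monotone (blk : Fin (m * t) → Fin m) := by
  intro x y hxy
  rw [Fin.le_def, blk_val, blk_val]
  exact Nat.div_le_div_right hxy

lemma sec_strictMono {m t : ℕ} (a : Fin t) : StrictMono (sec a : Fin m → Fin (m * t)) := by
  intro i j hij
  rw [Fin.lt_def, sec_val, sec_val]
  have ht : 0 < t := Nat.pos_of_ne_zero fun h => by
    have := a.2
    omega
  have : t * i.val < t * j.val := Nat.mul_lt_mul_of_pos_left hij ht
  omega

lemma sec_injective2 {m t : ℕ} (a a' : Fin t) (i i' : Fin m) (h : sec a i = sec a' i') :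
    a = a' ∧ i = i' := by
  have := finProdFinEquiv.injective h
  simp only [Prod.mk.injEq] at this
  exact ⟨this.2, this.1⟩

lemma blowup_sec {m t : ℕ} (A' : Fin m → Fin m → Bool) (a b : Fin t) (i j : Fin m) :
    blowup t A' (sec a i) (sec b j) = A' i j := by
  unfold blowup
  rw [blk_sec, blk_sec]

/-- **Distance of the blow-up.** If every `H`-free `m × m` matrix differs from `A'` in at least
`d` cells, then every `H`-free matrix differs from `blowup t A'` in at least `t * t * d` cells. -/
theorem dist_blowup {k m : ℕ} (t : ℕ) (H : Fin k → Fin k → Bool) (A' : Fin m → Fin m → Bool)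
    (d : ℕ)
    (hd : ∀ B' : Fin m → Fin m → Bool, orderedCopyCount H B' = 0 →
      d ≤ (Finset.univ.filter (fun rc : Fin m × Fin m => A' rc.1 rc.2 ≠ B' rc.1 rc.2)).card)
    (B : Fin (m * t) → Fin (m * t) → Bool) (hB : orderedCopyCount H B = 0) :
    t * t * d ≤ (Finset.univ.filter
      (fun rc : Fin (m * t) × Fin (m * t) => blowup t A' rc.1 rc.2 ≠ B rc.1 rc.2)).card := by
  classical
  -- the section (a, b)
  let S : Fin t × Fin t → Finset (Fin (m * t) × Fin (m * t)) := fun ab =>
    (Finset.univ.filter (fun rc : Fin m × Fin m =>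
      A' rc.1 rc.2 ≠ B (sec ab.1 rc.1) (sec ab.2 rc.2))).image
        (fun rc : Fin m × Fin m => (sec ab.1 rc.1, sec ab.2 rc.2))
  have hScard : ∀ ab : Fin t × Fin t, d ≤ (S ab).card := by
    intro ab
    have hinj : Function.Injective (fun rc : Fin m × Fin m => (sec ab.1 rc.1, sec ab.2 rc.2)) := by
      intro x y hxy
      simp only [Prod.mk.injEq] at hxy
      exact Prod.ext ((sec_strictMono ab.1).injective hxy.1) ((sec_strictMono ab.2).injective hxy.2)
    rw [Finset.card_image_of_injective _ hinj]
    exact hd (fun i j => B (sec ab.1 i) (sec ab.2 j))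
      (free_comp H B (sec ab.1) (sec ab.2) (sec_strictMono ab.1) (sec_strictMono ab.2) hB)
  have hSsub : ∀ ab : Fin t × Fin t, S ab ⊆ Finset.univ.filter
      (fun rc : Fin (m * t) × Fin (m * t) => blowup t A' rc.1 rc.2 ≠ B rc.1 rc.2) := by
    intro ab x hx
    simp only [S, Finset.mem_image, Finset.mem_filter, Finset.mem_univ, true_and] at hx
    obtain ⟨rc, hrc, rfl⟩ := hx
    simp only [Finset.mem_filter, Finset.mem_univ, true_and]
    rw [blowup_sec]
    exact hrc
  have hSdisj : ∀ ab ∈ (Finset.univ : Finset (Fin t × Fin t)),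
      ∀ ab' ∈ (Finset.univ : Finset (Fin t × Fin t)), ab ≠ ab' → Disjoint (S ab) (S ab') := by
    intro ab _ ab' _ hne
    rw [Finset.disjoint_left]
    intro x hx hx'
    simp only [S, Finset.mem_image, Finset.mem_filter, Finset.mem_univ, true_and] at hx hx'
    obtain ⟨rc, _, rfl⟩ := hx
    obtain ⟨rc', _, hEq⟩ := hx'
    simp only [Prod.mk.injEq] at hEq
    have h1 := (sec_injective2 _ _ _ _ hEq.1).1
    have h2 := (sec_injective2 _ _ _ _ hEq.2).1
    exact hne (Prod.ext h1.symm h2.symm)
  have hU : (Finset.univ.biUnion S).card = ∑ ab : Fin t × Fin t, (S ab).card :=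
    Finset.card_biUnion hSdisj
  have hsum : t * t * d ≤ ∑ ab : Fin t × Fin t, (S ab).card := by
    calc t * t * d = ∑ _ab : Fin t × Fin t, d := by
          simp [Finset.sum_const, Finset.card_univ, Fintype.card_prod]
      _ ≤ ∑ ab : Fin t × Fin t, (S ab).card := Finset.sum_le_sum fun ab _ => hScard ab
  calc t * t * d ≤ ∑ ab : Fin t × Fin t, (S ab).card := hsum
    _ = (Finset.univ.biUnion S).card := hU.symm
    _ ≤ _ := Finset.card_le_card (Finset.biUnion_subset.mpr fun ab _ => hSsub ab)

/-- **Copies in the blow-up project to copies.** If the rows of `H` are pairwise distinct and the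
columns of `H` are pairwise distinct, then an ordered copy of `H` in `blowup t A'` uses at most
one clone of every line, so its block indices form an ordered copy of `H` in `A'`. -/
theorem copy_blowup_proj {k m : ℕ} (t : ℕ) (H : Fin k → Fin k → Bool)
    (hr : ∀ p p' : Fin k, p < p' → ∃ q, H p q ≠ H p' q)
    (hc : ∀ q q' : Fin k, q < q' → ∃ p, H p q ≠ H p q')
    (A' : Fin m → Fin m → Bool) (rows cols : Fin k → Fin (m * t))
    (hrows : StrictMono rows) (hcols : StrictMono cols)
    (hcopy : ∀ i j, blowup t A' (rows i) (cols j) = H i j) :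
    StrictMono (fun p => blk (rows p)) ∧ StrictMono (fun q => blk (cols q)) ∧
      ∀ i j, A' (blk (rows i)) (blk (cols j)) = H i j := by
  refine ⟨?_, ?_, hcopy⟩
  · intro p p' hpp'
    have hle : blk (rows p) ≤ blk (rows p') := blk_mono (hrows hpp').le
    rcases lt_or_eq_of_le hle with hlt | heq
    · exact hlt
    · exfalso
      obtain ⟨q, hq⟩ := hr p p' hpp'
      apply hq
      rw [← hcopy p q, ← hcopy p' q]
      unfold blowup
      rw [heq]
  · intro q q' hqq'
    have hle : blk (cols q) ≤ blk (cols q') := blk_mono (hcols hqq').le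
    rcases lt_or_eq_of_le hle with hlt | heq
    · exact hlt
    · exfalso
      obtain ⟨p, hp⟩ := hc q q' hqq'
      apply hp
      rw [← hcopy p q, ← hcopy p q']
      unfold blowup
      rw [heq]

/-- The cells of the blow-up lying over a set `Z'` of cells of `A'`. -/
def blowupCells {m : ℕ} (t : ℕ) (Z' : Finset (Fin m × Fin m)) :
    Finset (Fin (m * t) × Fin (m * t)) :=
  Finset.univ.filter (fun xy : Fin (m * t) × Fin (m * t) => (blk xy.1, blk xy.2) ∈ Z')

lemma card_blowupCells {m : ℕ} (t : ℕ) (Z' : Finset (Fin m × Fin m)) :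
    (blowupCells t Z').card = t * t * Z'.card := by
  classical
  let e : (Fin m × Fin m) × (Fin t × Fin t) → Fin (m * t) × Fin (m * t) :=
    fun z => (finProdFinEquiv (z.1.1, z.2.1), finProdFinEquiv (z.1.2, z.2.2))
  have he : Function.Injective e := by
    intro x y hxy
    simp only [e, Prod.mk.injEq, EmbeddingLike.apply_eq_iff_eq] at hxy
    obtain ⟨⟨h1, h2⟩, h3, h4⟩ := hxy
    exact Prod.ext (Prod.ext h1 h3) (Prod.ext h2 h4)
  have himg : blowupCells t Z' = (Z' ×ˢ (Finset.univ : Finset (Fin t × Fin t))).image e := by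
    ext xy
    simp only [blowupCells, Finset.mem_filter, Finset.mem_univ, true_and, Finset.mem_image,
      Finset.mem_product, and_true]
    constructor
    · intro h
      refine ⟨((blk xy.1, blk xy.2), ((finProdFinEquiv.symm xy.1).2,
        (finProdFinEquiv.symm xy.2).2)), h, ?_⟩
      have h1 : finProdFinEquiv (blk xy.1, (finProdFinEquiv.symm xy.1).2) = xy.1 :=
        finProdFinEquiv.apply_symm_apply xy.1
      have h2 : finProdFinEquiv (blk xy.2, (finProdFinEquiv.symm xy.2).2) = xy.2 :=
        finProdFinEquiv.apply_symm_apply xy.2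
      exact Prod.ext h1 h2
    · rintro ⟨z, hz, rfl⟩
      simpa [e, blk] using hz
  rw [himg, Finset.card_image_of_injective _ he, Finset.card_product, Finset.card_univ,
    Fintype.card_prod, Fintype.card_fin]
  ring

/-- **Pinned copies in the blow-up.** If every ordered copy of `H` in `A'` puts the entry `(a, b)`
on a cell of `Z'`, and the rows (columns) of `H` are pairwise distinct, then every ordered copy of
`H` in `blowup t A'` puts the entry `(a, b)` on a cell of `blowupCells t Z'`. -/
theorem pinned_blowup {k m : ℕ} (t : ℕ) (H : Fin k → Fin k → Bool)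
    (hr : ∀ p p' : Fin k, p < p' → ∃ q, H p q ≠ H p' q)
    (hc : ∀ q q' : Fin k, q < q' → ∃ p, H p q ≠ H p q')
    (A' : Fin m → Fin m → Bool) (a b : Fin k) (Z' : Finset (Fin m × Fin m))
    (hZ' : ∀ rows cols : Fin k → Fin m, StrictMono rows → StrictMono cols →
      (∀ i j, A' (rows i) (cols j) = H i j) → (rows a, cols b) ∈ Z')
    (rows cols : Fin k → Fin (m * t)) (hrows : StrictMono rows) (hcols : StrictMono cols)
    (hcopy : ∀ i j, blowup t A' (rows i) (cols j) = H i j) :
    (rows a, cols b) ∈ blowupCells t Z' := by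
  obtain ⟨h1, h2, h3⟩ := copy_blowup_proj t H hr hc A' rows cols hrows hcols hcopy
  simp only [blowupCells, Finset.mem_filter, Finset.mem_univ, true_and]
  exact hZ' _ _ h1 h2 h3

end Crest.Agent.Helper60.OrdMat
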