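import Mathlib
import Crest.Prelude.Def_OrderedMatrix
import Crest.Agent.Helper60.OrdMat.Generic

/-!
# Padding a host matrix (statement S0066)

`pad n v A'` embeds an `m × m` host `A'` into the top-left corner of an `n × n` host and fills all
other cells with the constant `v`.  If every row and every column of the pattern `H` contains an
entry different from `v`, no ordered copy of `H` uses a padding line, hence the padded host has no
more copies than `A'` (`orderedCopyCount_pad_le`); the distance to `H`-freeness does not decrease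
(`dist_pad`), without any hypothesis on `H`.
-/

set_option autoImplicit false

namespace Crest.Agent.Helper60.OrdMat

open Crest.CombinatoricsR.OrderedMatrix

/-- The `n × n` host equal to `A'` on the top-left `m × m` corner and to `v` elsewhere. -/
def pad {m : ℕ} (n : ℕ) (v : Bool) (A' : Fin m → Fin m → Bool) : Fin n → Fin n → Bool :=
  fun i j => if h : i.val < m ∧ j.val < m then A' ⟨i.val, h.1⟩ ⟨j.val, h.2⟩ else v

lemma pad_of_lt {m n : ℕ} (v : Bool) (A' : Fin m → Fin m → Bool) (i j : Fin n)
    (hi : i.val < m) (hj : j.val < m) : pad n v A' i j = A' ⟨i.val, hi⟩ ⟨j.val, hj⟩ := by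
  unfold pad
  rw [dif_pos ⟨hi, hj⟩]

lemma pad_of_not {m n : ℕ} (v : Bool) (A' : Fin m → Fin m → Bool) (i j : Fin n)
    (h : ¬ (i.val < m ∧ j.val < m)) : pad n v A' i j = v := by
  unfold pad
  rw [dif_neg h]

lemma pad_castLE {m n : ℕ} (hmn : m ≤ n) (v : Bool) (A' : Fin m → Fin m → Bool) (i j : Fin m) :
    pad n v A' (Fin.castLE hmn i) (Fin.castLE hmn j) = A' i j := by
  rw [pad_of_lt v A' _ _ (by simp) (by simp)]
  rfl

/-- If every row and every column of `H` has an entry different from the padding value, the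
padded host has at most as many ordered copies of `H` as the original host. -/
theorem orderedCopyCount_pad_le {k m n : ℕ} (v : Bool) (H : Fin k → Fin k → Bool)
    (hrow : ∀ i, ∃ j, H i j ≠ v) (hcol : ∀ j, ∃ i, H i j ≠ v) (A' : Fin m → Fin m → Bool) :
    orderedCopyCount H (pad n v A') ≤ orderedCopyCount H A' := by
  classical
  unfold orderedCopyCount
  -- every copy lives in the corner
  have key : ∀ rc : {rc : (Fin k → Fin n) × (Fin k → Fin n) //
      StrictMono rc.1 ∧ StrictMono rc.2 ∧ ∀ i j : Fin k, pad n v A' (rc.1 i) (rc.2 j) = H i j},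
      (∀ i, (rc.1.1 i).val < m) ∧ (∀ j, (rc.1.2 j).val < m) := by
    rintro ⟨⟨r, c⟩, hr, hc, hA⟩
    have hcell : ∀ i j, H i j ≠ v → (r i).val < m ∧ (c j).val < m := by
      intro i j hne
      by_contra hcon
      have := hA i j
      rw [pad_of_not v A' _ _ hcon] at this
      exact hne this.symm
    refine ⟨fun i => ?_, fun j => ?_⟩
    · obtain ⟨j, hj⟩ := hrow i
      exact (hcell i j hj).1
    · obtain ⟨i, hi⟩ := hcol j
      exact (hcell i j hi).2
  let f : {rc : (Fin k → Fin n) × (Fin k → Fin n) //
      StrictMono rc.1 ∧ StrictMono rc.2 ∧ ∀ i j : Fin k, pad n v A' (rc.1 i) (rc.2 j) = H i j} →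
      {rc : (Fin k → Fin m) × (Fin k → Fin m) //
      StrictMono rc.1 ∧ StrictMono rc.2 ∧ ∀ i j : Fin k, A' (rc.1 i) (rc.2 j) = H i j} :=
    fun rc => ⟨(fun i => ⟨(rc.1.1 i).val, (key rc).1 i⟩, fun j => ⟨(rc.1.2 j).val, (key rc).2 j⟩),
      by
        refine ⟨?_, ?_, ?_⟩
        · intro i i' hii'
          exact rc.2.1 hii'
        · intro j j' hjj'
          exact rc.2.2.1 hjj'
        · intro i j
          have := rc.2.2.2 i j
          rw [pad_of_lt v A' _ _ ((key rc).1 i) ((key rc).2 j)] at this
          exact this⟩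
  have hf : Function.Injective f := by
    rintro ⟨⟨r₁, c₁⟩, h₁⟩ ⟨⟨r₂, c₂⟩, h₂⟩ hEq
    simp only [f, Subtype.mk.injEq, Prod.mk.injEq] at hEq
    obtain ⟨hr, hc⟩ := hEq
    have er : r₁ = r₂ := by
      funext i
      have := congrFun hr i
      exact Fin.ext (by simpa using this)
    have ec : c₁ = c₂ := by
      funext j
      have := congrFun hc j
      exact Fin.ext (by simpa using this)
    subst er ec
    rfl
  exact Fintype.card_le_of_injective f hf

/-- A lower bound for the distance of `A'` to `H`-freeness transfers to the padded host. -/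
theorem dist_pad {k m n : ℕ} (hmn : m ≤ n) (v : Bool) (H : Fin k → Fin k → Bool)
    (A' : Fin m → Fin m → Bool) (d : ℕ)
    (hd : ∀ B' : Fin m → Fin m → Bool, orderedCopyCount H B' = 0 →
      d ≤ (Finset.univ.filter (fun rc : Fin m × Fin m => A' rc.1 rc.2 ≠ B' rc.1 rc.2)).card)
    (B : Fin n → Fin n → Bool) (hB : orderedCopyCount H B = 0) :
    d ≤ (Finset.univ.filter
      (fun rc : Fin n × Fin n => pad n v A' rc.1 rc.2 ≠ B rc.1 rc.2)).card := by
  classical
  have hmono : StrictMono (Fin.castLE hmn) := Fin.strictMono_castLE hmn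
  have h1 := hd (fun i j => B (Fin.castLE hmn i) (Fin.castLE hmn j))
    (free_comp H B _ _ hmono hmono hB)
  have h2 := card_diff_comp_le (pad n v A') B (Fin.castLE hmn) (Fin.castLE hmn)
    hmono.injective hmono.injective
  simp only [pad_castLE hmn v A'] at h2
  exact h1.trans h2

end Crest.Agent.Helper60.OrdMat
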