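import Mathlib
import Crest.Prelude.Def_OrderedMatrix
import Crest.Agent.Helper60.OrdMat.Generic
import Crest.Agent.Helper60.OrdMat.Pad
import Crest.Agent.Helper60.OrdMat.Binom
import Crest.Agent.Helper60.OrdMat.Blowup

/-!
# Reduction of S0066 to a base design

`s0066_of_base`: the frozen statement S0066 follows from a *base design*: for every `h ≥ 1` a host
`A'` of some size `m`, a blow-up factor `t` with `m * t ≤ (386h+2)·2^h`, a set `Z'` of cells with
`t² |Z'| ≤ c · 2^h` (`c ≤ (65!)²` a constant) such that every ordered copy of `H` in `A'` puts the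
fixed entry `(a, b)` of `H` on a cell of `Z'`, and a number `d` with `4^h ≤ t² d` such that every
`H`-free matrix differs from `A'` in at least `d` cells.  The pattern must have pairwise distinct
rows, pairwise distinct columns, and in every row and column an entry different from the padding
value `v`.
-/

set_option autoImplicit false

namespace Crest.Agent.Helper60.OrdMat

open Crest.CombinatoricsR.OrderedMatrix

/-- The natural-number statement for one `h` from a base design (padding of a blow-up). -/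
theorem nat_of_base (H : Fin 66 → Fin 66 → Bool) (v : Bool) (a b : Fin 66)
    (hrow : ∀ i, ∃ j, H i j ≠ v) (hcol : ∀ j, ∃ i, H i j ≠ v)
    (hr : ∀ p p' : Fin 66, p < p' → ∃ q, H p q ≠ H p' q)
    (hc : ∀ q q' : Fin 66, q < q' → ∃ p, H p q ≠ H p q')
    (c : ℕ) (hc0 : 0 < c) (hcle : c ≤ Nat.factorial 65 * Nat.factorial 65)
    (n M D m t d : ℕ) (A' : Fin m → Fin m → Bool) (Z' : Finset (Fin m × Fin m))
    (hsize : m * t ≤ n) (hZcard : t * t * Z'.card ≤ c * M) (hD : D ≤ t * t * d)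
    (hZ' : ∀ rows cols : Fin 66 → Fin m, StrictMono rows → StrictMono cols →
      (∀ i j, A' (rows i) (cols j) = H i j) → (rows a, cols b) ∈ Z')
    (hd : ∀ B' : Fin m → Fin m → Bool, orderedCopyCount H B' = 0 →
      d ≤ (Finset.univ.filter (fun rc : Fin m × Fin m => A' rc.1 rc.2 ≠ B' rc.1 rc.2)).card) :
    ∃ A : Fin n → Fin n → Bool,
      (∀ B : Fin n → Fin n → Bool, orderedCopyCount H B = 0 →
        D ≤ (Finset.univ.filter (fun rc : Fin n × Fin n => A rc.1 rc.2 ≠ B rc.1 rc.2)).card) ∧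
      orderedCopyCount H A ≤ M * n ^ 130 := by
  refine ⟨pad n v (blowup t A'), fun B hB => ?_, ?_⟩
  · exact hD.trans (dist_pad hsize v H (blowup t A') (t * t * d)
      (fun B' hB' => dist_blowup t H A' d hd B' hB') B hB)
  · have h1 : orderedCopyCount H (pad n v (blowup t A')) ≤ orderedCopyCount H (blowup t A') :=
      orderedCopyCount_pad_le v H hrow hcol (blowup t A')
    have h2 : orderedCopyCount H (blowup t A') ≤ M * (m * t) ^ 130 :=
      orderedCopyCount_le_of_pinned_66_const H (blowup t A') a b (blowupCells t Z')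
        (fun rows cols hrows hcols hcopy =>
          pinned_blowup t H hr hc A' a b Z' hZ' rows cols hrows hcols hcopy)
        c M hcle hc0 (by rw [card_blowupCells]; exact hZcard)
    calc orderedCopyCount H (pad n v (blowup t A')) ≤ orderedCopyCount H (blowup t A') := h1
      _ ≤ M * (m * t) ^ 130 := h2
      _ ≤ M * n ^ 130 := Nat.mul_le_mul_left _ (Nat.pow_le_pow_left hsize 130)

/-- **S0066 from a base design.** -/
theorem s0066_of_base (H : Fin 66 → Fin 66 → Bool) (v : Bool) (a b : Fin 66)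
    (hrow : ∀ i, ∃ j, H i j ≠ v) (hcol : ∀ j, ∃ i, H i j ≠ v)
    (hr : ∀ p p' : Fin 66, p < p' → ∃ q, H p q ≠ H p' q)
    (hc : ∀ q q' : Fin 66, q < q' → ∃ p, H p q ≠ H p q')
    (c : ℕ) (hc0 : 0 < c) (hcle : c ≤ Nat.factorial 65 * Nat.factorial 65)
    (hbase : ∀ h : ℕ, 1 ≤ h → ∃ (m t d : ℕ) (A' : Fin m → Fin m → Bool)
        (Z' : Finset (Fin m × Fin m)),
        m * t ≤ (386 * h + 2) * 2 ^ h ∧ t * t * Z'.card ≤ c * 2 ^ h ∧ 4 ^ h ≤ t * t * d ∧
        (∀ rows cols : Fin 66 → Fin m, StrictMono rows → StrictMono cols →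
          (∀ i j, A' (rows i) (cols j) = H i j) → (rows a, cols b) ∈ Z') ∧
        (∀ B' : Fin m → Fin m → Bool, orderedCopyCount H B' = 0 →
          d ≤ (Finset.univ.filter (fun rc : Fin m × Fin m => A' rc.1 rc.2 ≠ B' rc.1 rc.2)).card)) :
    ∃ H : Fin 66 → Fin 66 → Bool, ∀ h : ℕ, 1 ≤ h →
      ∃ A : Fin ((386 * h + 2) * 2 ^ h) → Fin ((386 * h + 2) * 2 ^ h) → Bool,
        (∀ B : Fin ((386 * h + 2) * 2 ^ h) → Fin ((386 * h + 2) * 2 ^ h) → Bool,
          Crest.CombinatoricsR.OrderedMatrix.orderedCopyCount H B = 0 →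
            ((386 * (h : ℝ) + 2) ^ 2)⁻¹ * (((386 * h + 2) * 2 ^ h : ℕ) : ℝ) ^ 2 ≤
              ((Finset.univ.filter (fun rc : Fin ((386 * h + 2) * 2 ^ h) × Fin ((386 * h + 2) * 2 ^ h) =>
                A rc.1 rc.2 ≠ B rc.1 rc.2)).card : ℝ)) ∧
        (Crest.CombinatoricsR.OrderedMatrix.orderedCopyCount H A : ℝ) /
            (((386 * h + 2) * 2 ^ h : ℕ) : ℝ) ^ 132 ≤
          ((386 * (h : ℝ) + 2) ^ 2)⁻¹ * (2 : ℝ)⁻¹ ^ h := by
  apply s0066_of_nat H
  intro h hh
  obtain ⟨m, t, d, A', Z', hsize, hZcard, hD, hZ', hd⟩ := hbase h hh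
  exact nat_of_base H v a b hrow hcol hr hc c hc0 hcle ((386 * h + 2) * 2 ^ h) (2 ^ h) (4 ^ h)
    m t d A' Z' hsize hZcard hD hZ' hd

end Crest.Agent.Helper60.OrdMat
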